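import Vale.Agent.P161.Crit

namespace Vale.Agent.Results.P161.Full

open Vale.Agent.P161 MeasureTheory

theorem result (d : ℕ) (hd : 3 ≤ d) (V : Type) (G : SimpleGraph V) (hG : IsRegularTree G d)
    (β : ℝ) (hβ : 0 ≤ β) :
    (∃! μ : Measure (V → Bool), IsFreeIsing G (Real.tanh β) μ) ∧
    ∀ μ : Measure (V → Bool), IsFreeIsing G (Real.tanh β) μ →
      (IsFactorOfIID G μ ↔ Real.tanh β ≤ ((d : ℝ) - 1) ^ (-(1 / 2) : ℝ)) := by
  obtain ⟨D, rfl⟩ : ∃ D, d = D + 1 := ⟨d - 1, by omega⟩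
  have h0 : 0 ≤ Real.tanh β := by
    rw [Real.tanh_eq_sinh_div_cosh]
    exact div_nonneg (Real.sinh_nonneg_iff.2 hβ) (Real.cosh_pos β).le
  have h1 := (Real.tanh_lt_one β).le
  have hD : (0 : ℝ) < D := by exact_mod_cast (by omega : 0 < D)
  have e : (((D + 1 : ℕ) : ℝ) - 1) ^ (-(1 / 2) : ℝ) = (√D)⁻¹ := by
    rw [Nat.cast_add_one, add_sub_cancel_right, Real.rpow_neg hD.le, Real.sqrt_eq_rpow]
  have hs : 0 < √(D : ℝ) := Real.sqrt_pos.2 hD
  have e2 : Real.tanh β ^ 2 * D = (Real.tanh β * √D) ^ 2 := by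
    rw [mul_pow, Real.sq_sqrt hD.le]
  refine ⟨existsUnique_of_exists_of_unique (exists_isFreeIsing hG h0 h1)
    fun _ _ hμ hν => hμ.unique hG hν, fun μ hμ => ?_⟩
  rw [e, inv_eq_one_div, le_div_iff₀ hs, ← pow_le_one_iff_of_nonneg (by positivity) two_ne_zero,
    ← e2]
  refine ⟨fun h => not_lt.1 fun h' => not_isFactorOfIID hG (by omega) h0 h1 h' hμ h, fun h => ?_⟩
  rcases h.lt_or_eq with h | h
  exacts [fiid_sub hG (by omega) h0 h hμ, fiid_crit hG (by omega) h0 h hμ]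

end Vale.Agent.Results.P161.Full
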