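import Vale.Agent.P161.Sub

namespace Vale.Agent.Results.P161.Subcritical

open Vale.Agent.P161 MeasureTheory

theorem result (d : ℕ) (hd : 3 ≤ d) (V : Type) (G : SimpleGraph V) (hG : IsRegularTree G d)
    (β : ℝ) (hβ : 0 ≤ β) :
    (∃ μ : Measure (V → Bool), IsFreeIsing G (Real.tanh β) μ) ∧
    ∀ μ : Measure (V → Bool), IsFreeIsing G (Real.tanh β) μ →
      (Real.tanh β < ((d : ℝ) - 1) ^ (-(1 / 2) : ℝ) → IsFactorOfIID G μ) ∧
      (((d : ℝ) - 1) ^ (-(1 / 2) : ℝ) < Real.tanh β → ¬ IsFactorOfIID G μ) := by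
  obtain ⟨D, rfl⟩ : ∃ D, d = D + 1 := ⟨d - 1, by omega⟩
  have h0 : 0 ≤ Real.tanh β := by
    rw [Real.tanh_eq_sinh_div_cosh]
    exact div_nonneg (Real.sinh_nonneg_iff.2 hβ) (Real.cosh_pos β).le
  have h1 := (Real.tanh_lt_one β).le
  have hD : (0 : ℝ) < D := by exact_mod_cast (by omega : 0 < D)
  have e : (((D + 1 : ℕ) : ℝ) - 1) ^ (-(1 / 2) : ℝ) = (√D)⁻¹ := by
    rw [Nat.cast_add_one, add_sub_cancel_right, Real.rpow_neg hD.le, Real.sqrt_eq_rpow]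
  have hs : 0 < √(D : ℝ) := Real.sqrt_pos.2 hD
  have e2 : Real.tanh β ^ 2 * D = (Real.tanh β * √D) ^ 2 := by
    rw [mul_pow, Real.sq_sqrt hD.le]
  refine ⟨exists_isFreeIsing hG h0 h1, fun μ hμ => ⟨fun h => ?_, fun h => ?_⟩⟩
  · refine fiid_sub hG (by omega) h0 ?_ hμ
    rw [e, inv_eq_one_div, lt_div_iff₀ hs] at h
    rw [e2]
    exact pow_lt_one₀ (by positivity) h two_ne_zero
  · refine not_isFactorOfIID hG (by omega) h0 h1 ?_ hμ
    rw [e, inv_eq_one_div, div_lt_iff₀ hs] at h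
    rw [e2]
    exact one_lt_pow₀ h two_ne_zero

end Vale.Agent.Results.P161.Subcritical
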